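import Vale.Agent.P176.Rickard.Main
import Vale.Agent.P176.Deloop.Main
import Vale.Agent.P176.CoDelooping

universe w u

open CategoryTheory Limits Vale.Agent.P176 Vale.Agent.P176.Deloop

/-- Three sufficient conditions for the finitistic dimension conjectures, in one statement.
(1) `A` a finite dimensional algebra over a field: if the injective left modules generate the
unbounded derived category of all left modules as a localizing subcategory, then there is `n` such
that every left module (finitely generated or not) of finite projective dimension has projective
dimension at most `n`.
(2) `A` a finite dimensional algebra over a field: if every simple left module has derived delooping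
level at most `m`, then every right module (left module over the opposite algebra) of finite
projective dimension has projective dimension at most `m`.
(3) `A` a left Noetherian ring: if the regular module has a finite coresolution of length at most `r`
whose `j`-th term is stably a direct summand of a `(j+1)`-st cosyzygy, then every finitely generated
left module of finite projective dimension has projective dimension at most `r`. -/
theorem Vale.Agent.Results.P176.AllCriteria.result :
    (∀ (k A : Type u) [Field k] [Ring A] [Algebra k A] [Module.Finite k A]
      [HasDerivedCategory.{w} (ModuleCat.{u} A)],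
      (∀ P : ObjectProperty (DerivedCategory (ModuleCat.{u} A)), P.IsTriangulated →
        P.IsClosedUnderIsomorphisms →
        (∀ J : Type u, P.IsClosedUnderColimitsOfShape (Discrete J)) →
        (∀ I : ModuleCat.{u} A, Injective I →
          P ((DerivedCategory.singleFunctor (ModuleCat.{u} A) 0).obj I)) → ∀ X, P X) →
      ∃ n : ℕ, ∀ M : ModuleCat.{u} A, projectiveDimension M ≠ ⊤ → projectiveDimension M ≤ n) ∧
    (∀ (k A : Type u) [Field k] [Ring A] [Algebra k A] [Module.Finite k A] (m : ℕ),
      (∀ S : ModuleCat.{u} A, IsSimpleModule A S → DerivedDelooping m 0 S) →
      ∀ X : ModuleCat.{u} Aᵐᵒᵖ, projectiveDimension X ≠ ⊤ → projectiveDimension X ≤ m) ∧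
    (∀ (A : Type u) [Ring A] [IsNoetherianRing A] (r : ℕ),
      CoDeloopingResolution r 0 (ModuleCat.of A A) →
      ∀ M : ModuleCat.{u} A, Module.Finite A M → projectiveDimension M ≠ ⊤ →
        projectiveDimension M ≤ r) := by
  refine ⟨fun k A _ _ _ _ _ hgen => Rickard.findim_finite_of_injectives_generate k A hgen,
    fun k A _ _ _ _ m h X hX => projectiveDimension_le_of_derivedDelooping k A m h X hX,
    fun A _ _ r h M _ hM => ?_⟩
  obtain ⟨d, hd⟩ := (projectiveDimension_ne_top_iff M).mp hM
  rw [projectiveDimension_le_iff]
  exact hasProjectiveDimensionLE_of_coDeloopingResolution r h M d hd
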