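import Vale.Agent.P176.Deloop.Main

universe u

open CategoryTheory Vale.Agent.P176.Deloop

/-- Let `A` be a finite dimensional algebra over a field `k` and `m` a natural number such that every
simple left `A`-module has delooping level at most `m`: some `m`-th syzygy of it is, up to a
projective summand, a direct summand of an `(m + 1)`-st syzygy of some module. Then every right
`A`-module (that is, every left module over the opposite algebra), finitely generated or not, of
finite projective dimension has projective dimension at most `m`. -/
theorem Vale.Agent.Results.P176.DeloopingBound.result (k A : Type u) [Field k] [Ring A]
    [Algebra k A] [Module.Finite k A] (m : ℕ)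
    (h : ∀ S : ModuleCat.{u} A, IsSimpleModule A S → IsDelooped 1 m S)
    (X : ModuleCat.{u} Aᵐᵒᵖ) (hX : projectiveDimension X ≠ ⊤) : projectiveDimension X ≤ m :=
  projectiveDimension_le_of_isDelooped k A m h X hX
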