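import Vale.Agent.P176.Rickard.Main

universe w u

open CategoryTheory Limits

/-- Let `A` be a finite dimensional algebra over a field `k`. Suppose that the injective left
`A`-modules generate the unbounded derived category of all left `A`-modules as a localizing
subcategory: every triangulated subcategory closed under isomorphisms and under all coproducts
indexed by types in the universe of `A` which contains the injective modules (placed in degree `0`)
is the whole derived category. Then the big finitistic dimension of `A` is finite: there is a
natural number `n` such that every left `A`-module (finitely generated or not) of finite
projective dimension has projective dimension at most `n`. -/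
theorem Vale.Agent.Results.P176.InjectivesGenerate.result (k A : Type u) [Field k] [Ring A]
    [Algebra k A] [Module.Finite k A] [HasDerivedCategory.{w} (ModuleCat.{u} A)]
    (hgen : ∀ P : ObjectProperty (DerivedCategory (ModuleCat.{u} A)), P.IsTriangulated →
      P.IsClosedUnderIsomorphisms →
      (∀ J : Type u, P.IsClosedUnderColimitsOfShape (Discrete J)) →
      (∀ I : ModuleCat.{u} A, Injective I →
        P ((DerivedCategory.singleFunctor (ModuleCat.{u} A) 0).obj I)) → ∀ X, P X) :
    ∃ n : ℕ, ∀ M : ModuleCat.{u} A, projectiveDimension M ≠ ⊤ → projectiveDimension M ≤ n :=
  Vale.Agent.P176.Rickard.findim_finite_of_injectives_generate k A hgen
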